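import Vale.Agent.P184.Main

/-!
The Bass conjecture for complex group rings, for every group.
-/

namespace Vale.Agent.Results.P184.GroupRing

open Classical in
/-- For every group `G`, every idempotent matrix `e` over the complex group ring and every element
`g` of infinite order, the Hattori-Stallings coefficient of `e` at the class of `g` vanishes. -/
theorem result {G : Type*} [Group G] (q : ℕ) (e : Matrix (Fin q) (Fin q) (MonoidAlgebra ℂ G))
    (he : e * e = e) (g : G) (hg : ¬ IsOfFinOrder g) :
    ∑ i : Fin q, ∑ h ∈ (e i i).coeff.support with IsConj g h, (e i i).coeff h = 0 := by
  convert Vale.Agent.P184.bass e he g hg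

end Vale.Agent.Results.P184.GroupRing
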